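import Mathlib
import Vale.Agent.Lib.P064.DegFinal

namespace Vale.Agent.Results.P064.A0_BoundedDegree

open Vale.Agent.Lib.P064

/-- The bound of Q1 for graphs of bounded maximum degree: for every `n ≥ 2`, every graph `H` on
at most `n` vertices and every `D ≥ 1` such that all vertices of `H` have degree at most `D`,
`p_c(n,H) ≤ 3888000 * D * p_E(n,H) * log n`. -/
theorem result (n : ℕ) (hn : 2 ≤ n) {W : Type*} [Fintype W] (H : SimpleGraph W)
    [DecidableRel H.Adj] (hW : Fintype.card W ≤ n) (D : ℕ) (hD1 : 1 ≤ D)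
    (hD : ∀ x, H.degree x ≤ D) :
    pc n H ≤ 3888000 * (D : ℝ) * pE n H * Real.log n :=
  pc_le_deg n hn H hW D hD1 hD

end Vale.Agent.Results.P064.A0_BoundedDegree
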