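import Mathlib
import Vale.Agent.Lib.P064.LogSqFinal

namespace Vale.Agent.Results.P064.A0_LogSquared

open Vale.Agent.Lib.P064

/-- A squared-logarithm bound for the second Kahn–Kalai question: for every `n ≥ 2` and every
graph `H` on at most `n` vertices, `p_c(n,H) ≤ 15552000 * p_E(n,H) * (log n)^2`. -/
theorem result (n : ℕ) (hn : 2 ≤ n) {W : Type*} [Fintype W] (H : SimpleGraph W)
    (hW : Fintype.card W ≤ n) :
    pc n H ≤ 15552000 * pE n H * (Real.log n) ^ 2 :=
  pc_le_logsq n hn H hW

end Vale.Agent.Results.P064.A0_LogSquared
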