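import Mathlib
import Vale.Agent.Lib.P064.LogSqFinal

namespace Vale.Agent.Results.P064.A1_CountingLog

open Vale.Agent.Lib.P064

/-- The counting inequality for all graphs `F` with a logarithmic loss: if every subgraph of `H`
(a graph on at most `n` vertices, `n ≥ 2`) has expected count at least `1` in `G(n,q)`, then the
number of copies of `F` in `H` is at most the expected number of copies of `F` in
`G(n, min(1, L q))` with `L = 38880 * log n`. -/
theorem result (n : ℕ) (hn : 2 ≤ n) {W : Type*} [Fintype W] (H : SimpleGraph W)
    (hW : Fintype.card W ≤ n) (q : ℝ) (hq0 : 0 ≤ q)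
    (hyp : ∀ F : H.Subgraph, 1 ≤ expectedCopies n q F.coe)
    {U : Type*} [Fintype U] (F : SimpleGraph U) :
    (H.copyCount F : ℝ)
      ≤ expectedCopies n (min 1 (38880 * Real.log n * q)) F :=
  logsq_counting n hn H hW q hq0 hyp F

end Vale.Agent.Results.P064.A1_CountingLog
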