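import Mathlib
import Vale.Agent.Lib.P064.Threshold

namespace Vale.Agent.Results.P064.A_Q1Sparse

open Vale.Agent.Lib.P064

/-- The bound of Q1 in the sparse regime: for `n ≥ 2` and every graph `H` on at most `n`
vertices with `n * p_E(n,H) ≤ c`, the threshold satisfies
`p_c(n,H) ≤ 259200 * e ^ (8 c) * p_E(n,H) * log n`. -/
theorem result (n : ℕ) (hn : 2 ≤ n) {W : Type*} [Fintype W] (H : SimpleGraph W)
    (hW : Fintype.card W ≤ n) (c : ℝ) (hc : (n : ℝ) * pE n H ≤ c) :
    pc n H ≤ 259200 * Real.exp (8 * c) * pE n H * Real.log n :=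
  q1_sparse n hn H hW c hc

end Vale.Agent.Results.P064.A_Q1Sparse
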